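import Mathlib

open Finset

namespace Vale.Agent.Results.P310.QueryEvasive

/-- The type of colours of `k`-tuples after `r` rounds of refinement.  Round `0` colours are atomic
types (an equality pattern and an adjacency pattern); a round `r+1` colour is a pair consisting of
a round `r` colour and a multiset of `k`-tuples of round `r` colours. -/
def Colour (k : ℕ) : ℕ → Type
  | 0 => (Fin k → Fin k → Prop) × (Fin k → Fin k → Prop)
  | r + 1 => Colour k r × Multiset (Fin k → Colour k r)

/-- The colour `C_r(x)` of the tuple `x` in the graph `X` (joint-update `k`-dimensional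
Weisfeiler-Leman refinement). -/
noncomputable def wlColour {k : ℕ} {V : Type} [Fintype V] [DecidableEq V] (X : SimpleGraph V) :
    (r : ℕ) → (Fin k → V) → Colour k r
  | 0, x => (fun i j => x i = x j, fun i j => X.Adj (x i) (x j))
  | r + 1, x => (wlColour X r x,
      (Finset.univ : Finset V).val.map (fun y => fun i => wlColour X r (Function.update x i y)))

/-- `G ≡_k H`: for every round `r` the multisets of colours of all `k`-tuples coincide. -/
def WLEquiv (k : ℕ) {V W : Type} [Fintype V] [DecidableEq V] [Fintype W] [DecidableEq W]
    (G : SimpleGraph V) (H : SimpleGraph W) : Prop :=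
  ∀ r : ℕ, (Finset.univ : Finset (Fin k → V)).val.map (wlColour G r) =
    (Finset.univ : Finset (Fin k → W)).val.map (wlColour H r)

/-- Deterministic decision trees querying Boolean inputs indexed by `ι`. -/
inductive DTree (ι : Type) : Type
  | leaf : Bool → DTree ι
  | node : ι → DTree ι → DTree ι → DTree ι

/-- The answer of a decision tree on an input: at a node the queried bit decides whether to go on
in the first subtree (bit `false`) or the second one (bit `true`). -/
def DTree.eval {ι : Type} : DTree ι → (ι → Bool) → Bool
  | .leaf b, _ => b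
  | .node i t0 t1, inp => if inp i then t1.eval inp else t0.eval inp

/-- The worst-case number of queries. -/
def DTree.depth {ι : Type} : DTree ι → ℕ
  | .leaf _ => 0
  | .node _ t0 t1 => max t0.depth t1.depth + 1

/-- The set of input positions read by the tree on a given input. -/
def DTree.queried {ι : Type} [DecidableEq ι] : DTree ι → (ι → Bool) → Finset ι
  | .leaf _, _ => ∅
  | .node i t0 t1, inp => insert i (if inp i then t1.queried inp else t0.queried inp)

/-- The input: the two adjacency matrices; position `(false, i, j)` is the `(i,j)` entry of the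
adjacency matrix of `G` and `(true, i, j)` that of `H`. -/
noncomputable def encode {n : ℕ} (G H : SimpleGraph (Fin n)) : Bool × Fin n × Fin n → Bool :=
  open Classical in fun p => if p.1 then decide (H.Adj p.2.1 p.2.2) else decide (G.Adj p.2.1 p.2.2)


lemma eval_congr {ι : Type} [DecidableEq ι] (t : DTree ι) (inp inp' : ι → Bool)
    (h : ∀ i ∈ t.queried inp, inp' i = inp i) : t.eval inp' = t.eval inp := by
  induction t with
  | leaf b => rfl
  | node i t0 t1 ih0 ih1 =>
    have hi : inp' i = inp i := h i (by simp [DTree.queried])
    simp only [DTree.eval, hi]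
    by_cases hb : inp i = true
    · simp only [hb, if_true]
      apply ih1
      intro j hj
      apply h
      simp [DTree.queried, hb, hj]
    · simp only [hb]
      apply ih0
      intro j hj
      apply h
      simp [DTree.queried, hb, hj]

lemma card_queried_le {ι : Type} [DecidableEq ι] (t : DTree ι) (inp : ι → Bool) :
    (t.queried inp).card ≤ t.depth := by
  induction t with
  | leaf b => simp [DTree.queried, DTree.depth]
  | node i t0 t1 ih0 ih1 =>
    simp only [DTree.queried, DTree.depth]
    refine (Finset.card_insert_le _ _).trans ?_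
    apply Nat.succ_le_succ
    by_cases hb : inp i = true
    · simp only [hb, if_true]
      exact ih1.trans (le_max_right _ _)
    · simp only [hb]
      exact ih0.trans (le_max_left _ _)

/-- number of `k`-tuples whose first two entries are adjacent -/
noncomputable def adjCount (k : ℕ) (hk : 2 ≤ k) {V : Type} [Fintype V] [DecidableEq V]
    (G : SimpleGraph V) : ℕ :=
  open Classical in
  ((Finset.univ : Finset (Fin k → V)).filter
    (fun x => G.Adj (x ⟨0, by omega⟩) (x ⟨1, by omega⟩))).card

lemma adjCount_eq (k : ℕ) (hk : 2 ≤ k) {V W : Type} [Fintype V] [DecidableEq V] [Fintype W]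
    [DecidableEq W] (G : SimpleGraph V) (H : SimpleGraph W) (h : WLEquiv k G H) :
    adjCount k hk G = adjCount k hk H := by
  classical
  have h0 := h 0
  let p : Colour k 0 → Prop := fun c =>
    (show (Fin k → Fin k → Prop) × (Fin k → Fin k → Prop) from c).2 ⟨0, by omega⟩ ⟨1, by omega⟩
  have h1 := congrArg (Multiset.countP p) h0
  rw [Multiset.countP_map, Multiset.countP_map] at h1
  unfold adjCount
  rw [Finset.card_def, Finset.card_def, Finset.filter_val, Finset.filter_val]
  convert h1 using 2 <;> exact Multiset.filter_congr (fun x _ => Iff.rfl)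

lemma adjCount_lt (k : ℕ) (hk : 2 ≤ k) {V : Type} [Fintype V] [DecidableEq V]
    (G G' : SimpleGraph V) (hle : G ≤ G') (a b : V) (hab : G'.Adj a b) (hab' : ¬ G.Adj a b) :
    adjCount k hk G < adjCount k hk G' := by
  classical
  unfold adjCount
  apply Finset.card_lt_card
  rw [Finset.ssubset_iff_of_subset]
  · refine ⟨fun i => if i = ⟨0, by omega⟩ then a else b, ?_, ?_⟩
    · simp [hab]
    · simp [hab']
  · intro x hx
    simp only [Finset.mem_filter, Finset.mem_univ, true_and] at hx ⊢
    exact hle hx

/-- flipping the pair `{a,b}` -/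
noncomputable def flipEdge {V : Type} [DecidableEq V] (G : SimpleGraph V) (a b : V) :
    SimpleGraph V :=
  open Classical in if G.Adj a b then G.deleteEdges {s(a, b)} else G ⊔ SimpleGraph.edge a b

lemma flipEdge_adj_of_ne {V : Type} [DecidableEq V] (G : SimpleGraph V) (a b x y : V)
    (h : s(x, y) ≠ s(a, b)) : (flipEdge G a b).Adj x y ↔ G.Adj x y := by
  classical
  unfold flipEdge
  split_ifs with hab
  · rw [SimpleGraph.deleteEdges_adj]
    simp [h]
  · rw [SimpleGraph.sup_adj, SimpleGraph.edge_adj]
    constructor
    · rintro (h1 | ⟨h1, _⟩)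
      · exact h1
      · exfalso
        apply h
        rw [Sym2.eq_iff]
        exact h1
    · exact Or.inl

lemma adjCount_flip_ne (k : ℕ) (hk : 2 ≤ k) {V : Type} [Fintype V] [DecidableEq V]
    (G : SimpleGraph V) (a b : V) (hne : a ≠ b) :
    adjCount k hk (flipEdge G a b) ≠ adjCount k hk G := by
  classical
  unfold flipEdge
  split_ifs with hab
  · apply ne_of_lt
    apply adjCount_lt k hk _ _ (SimpleGraph.deleteEdges_le _) a b hab
    rw [SimpleGraph.deleteEdges_adj]
    simp
  · apply ne_of_gt
    apply adjCount_lt k hk _ _ le_sup_left a b _ hab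
    rw [SimpleGraph.sup_adj, SimpleGraph.edge_adj]
    exact Or.inr ⟨Or.inl ⟨rfl, rfl⟩, hne⟩

lemma wlEquiv_refl (k : ℕ) {V : Type} [Fintype V] [DecidableEq V] (G : SimpleGraph V) :
    WLEquiv k G G := fun _ => rfl

lemma must_query (k n : ℕ) (hk : 2 ≤ k) (t : DTree (Bool × Fin n × Fin n))
    (ht : ∀ G H : SimpleGraph (Fin n), t.eval (encode G H) = true ↔ WLEquiv k G H)
    (G H : SimpleGraph (Fin n)) (hGH : WLEquiv k G H) (c : Bool) (a b : Fin n) (hab : a ≠ b) :
    (c, a, b) ∈ t.queried (encode G H) ∨ (c, b, a) ∈ t.queried (encode G H) := by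
  classical
  by_contra hcon
  rw [not_or] at hcon
  obtain ⟨h1, h2⟩ := hcon
  have hpos : ∀ p ∈ t.queried (encode G H), ¬ (p.1 = c ∧ s(p.2.1, p.2.2) = s(a, b)) := by
    rintro ⟨c', x, y⟩ hp ⟨hc, hs⟩
    simp only at hc hs
    subst hc
    rw [Sym2.eq_iff] at hs
    rcases hs with ⟨rfl, rfl⟩ | ⟨rfl, rfl⟩
    · exact h1 hp
    · exact h2 hp
  have hcount := adjCount_eq k hk G H hGH
  cases c with
  | false =>
    have hag : ∀ p ∈ t.queried (encode G H), encode (flipEdge G a b) H p = encode G H p := by
      rintro ⟨c', x, y⟩ hp
      have := hpos _ hp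
      cases c' with
      | true => simp [encode]
      | false =>
        simp only [true_and] at this
        simp [encode, flipEdge_adj_of_ne G a b x y this]
    have he := eval_congr t _ _ hag
    have h3 : WLEquiv k (flipEdge G a b) H := by
      rw [← ht, he, ht]; exact hGH
    have h4 := adjCount_eq k hk _ H h3
    exact adjCount_flip_ne k hk G a b hab (h4.trans hcount.symm)
  | true =>
    have hag : ∀ p ∈ t.queried (encode G H), encode G (flipEdge H a b) p = encode G H p := by
      rintro ⟨c', x, y⟩ hp
      have := hpos _ hp
      cases c' with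
      | false => simp [encode]
      | true =>
        simp only [true_and] at this
        simp [encode, flipEdge_adj_of_ne H a b x y this]
    have he := eval_congr t _ _ hag
    have h3 : WLEquiv k G (flipEdge H a b) := by
      rw [← ht, he, ht]; exact hGH
    have h4 := adjCount_eq k hk G _ h3
    exact adjCount_flip_ne k hk H a b hab (h4.symm.trans hcount)

/-- **Evasiveness of `≡_k`.**  Fix `k ≥ 2` and `n`.  Any deterministic decision tree that reads
entries of the two adjacency matrices and decides `G ≡_k H` for all pairs of graphs on `n`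
vertices must, on *every* yes-instance, read an entry for each of the `2·C(n,2)` vertex pairs of
the two graphs; in particular its depth is at least `n (n-1)`. -/
theorem result (k n : ℕ) (hk : 2 ≤ k) (t : DTree (Bool × Fin n × Fin n))
    (ht : ∀ G H : SimpleGraph (Fin n), t.eval (encode G H) = true ↔ WLEquiv k G H) :
    (∀ G H : SimpleGraph (Fin n), WLEquiv k G H → ∀ (c : Bool) (a b : Fin n), a ≠ b →
        (c, a, b) ∈ t.queried (encode G H) ∨ (c, b, a) ∈ t.queried (encode G H)) ∧
      n * (n - 1) ≤ t.depth := by
  classical
  refine ⟨fun G H hGH c a b hab => must_query k n hk t ht G H hGH c a b hab, ?_⟩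
  set Q := t.queried (encode (⊥ : SimpleGraph (Fin n)) ⊥) with hQ
  have hq := must_query k n hk t ht ⊥ ⊥ (wlEquiv_refl k _)
  let sw : Bool × Fin n × Fin n → Bool × Fin n × Fin n := fun p => (p.1, p.2.2, p.2.1)
  have hsub : (Finset.univ : Finset Bool) ×ˢ (Finset.univ : Finset (Fin n)).offDiag ⊆
      Q ∪ Q.image sw := by
    rintro ⟨c, a, b⟩ hp
    simp only [Finset.mem_product, Finset.mem_univ, Finset.mem_offDiag, true_and] at hp
    rw [Finset.mem_union, Finset.mem_image]
    rcases hq c a b hp with h | h
    · exact Or.inl h
    · exact Or.inr ⟨(c, b, a), h, rfl⟩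
  have hcard := Finset.card_le_card hsub
  rw [Finset.card_product, Finset.offDiag_card] at hcard
  simp only [Finset.card_univ, Fintype.card_bool, Fintype.card_fin] at hcard
  have h1 : (Q ∪ Q.image sw).card ≤ Q.card + Q.card :=
    (Finset.card_union_le _ _).trans (Nat.add_le_add_left Finset.card_image_le _)
  have h2 : Q.card ≤ t.depth := card_queried_le t (encode (⊥ : SimpleGraph (Fin n)) ⊥)
  have h3 : n * (n - 1) = n * n - n := by
    rw [Nat.mul_sub, mul_one]
  omega

end Vale.Agent.Results.P310.QueryEvasive
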